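import Vale.Agent.Lib.P279.Fat

namespace Vale.Agent.Lib.P279

/-- A root of `q` at which the derivative vanishes to order `m` is a root of order `m + 1`. -/
lemma pow_succ_dvd_of_root {q : Polynomial ℂ} {t : ℂ} {m : ℕ} (h0 : q.eval t = 0)
    (hd : (Polynomial.X - Polynomial.C t) ^ m ∣ Polynomial.derivative q) :
    (Polynomial.X - Polynomial.C t) ^ (m + 1) ∣ q := by
  by_cases hq : q = 0
  · rw [hq]; exact dvd_zero _
  have hroot : q.IsRoot t := h0
  have h1 := Polynomial.derivative_rootMultiplicity_of_root hroot
  by_cases hdq : Polynomial.derivative q = 0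
  · exfalso
    have hdeg := Polynomial.derivative_eq_zero.1 hdq
    rw [Polynomial.natDegree_eq_zero] at hdeg
    obtain ⟨c, rfl⟩ := hdeg
    simp at h0
    exact hq (by simp [h0])
  · have h2 : m ≤ (Polynomial.derivative q).rootMultiplicity t :=
      (Polynomial.le_rootMultiplicity_iff hdq).2 hd
    have h3 : 0 < q.rootMultiplicity t := (Polynomial.rootMultiplicity_pos hq).2 hroot
    rw [← Polynomial.le_rootMultiplicity_iff hq]
    omega

/-- Chain rule for the substitution of a polynomial curve into a polynomial. -/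
lemma derivative_aeval (φ : Fin 3 → Polynomial ℂ) (G : MvPolynomial (Fin 3) ℂ) :
    Polynomial.derivative (MvPolynomial.aeval φ G) =
      ∑ j, MvPolynomial.aeval φ (MvPolynomial.pderiv j G) * Polynomial.derivative (φ j) := by
  induction G using MvPolynomial.induction_on with
  | C a => simp
  | add p q hp hq => simp only [map_add, hp, hq, add_mul, Finset.sum_add_distrib]
  | mul_X p i hp =>
    have key : ∀ j, MvPolynomial.aeval φ (MvPolynomial.pderiv j (p * MvPolynomial.X i)) *
          Polynomial.derivative (φ j) =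
        MvPolynomial.aeval φ (MvPolynomial.pderiv j p) * Polynomial.derivative (φ j) * φ i +
          (if j = i then MvPolynomial.aeval φ p * Polynomial.derivative (φ i) else 0) := by
      intro j
      rw [MvPolynomial.pderiv_mul, map_add, map_mul, map_mul, MvPolynomial.aeval_X]
      by_cases hji : j = i
      · subst hji
        rw [MvPolynomial.pderiv_X_self, map_one, if_pos rfl]
        ring
      · rw [MvPolynomial.pderiv_X_of_ne (Ne.symm hji), map_zero, if_neg hji]
        ring
    simp_rw [key]
    rw [Finset.sum_add_distrib, Finset.sum_ite_eq' Finset.univ i, if_pos (Finset.mem_univ i),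
      map_mul, MvPolynomial.aeval_X, Polynomial.derivative_mul, hp, Finset.sum_mul]

lemma eval_aeval (φ : Fin 3 → Polynomial ℂ) (G : MvPolynomial (Fin 3) ℂ) (t : ℂ) :
    Polynomial.eval t (MvPolynomial.aeval φ G) =
      MvPolynomial.eval (fun j => (φ j).eval t) G := by
  induction G using MvPolynomial.induction_on with
  | C a => simp
  | add p q hp hq => simp [hp, hq]
  | mul_X p i hp => simp [hp]

lemma vanishesToOrder_succ {F : MvPolynomial (Fin 3) ℂ} {x : Fin 3 → ℂ} {m : ℕ}
    (h : VanishesToOrder F x (m + 1)) :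
    MvPolynomial.eval x F = 0 ∧ ∀ j, VanishesToOrder (MvPolynomial.pderiv j F) x m := by
  refine ⟨?_, fun j l hl => ?_⟩
  · simpa using h [] (Nat.succ_pos m)
  · have := h (l ++ [j]) (by simp; omega)
    rw [List.foldr_append] at this
    exact this

/-- If `F` vanishes to order `m` at the point `φ(t)` of a polynomial curve, then `F ∘ φ` has a
root of order `m` at `t`. -/
lemma pow_dvd_aeval (φ : Fin 3 → Polynomial ℂ) (t : ℂ) :
    ∀ (m : ℕ) (F : MvPolynomial (Fin 3) ℂ), VanishesToOrder F (fun j => (φ j).eval t) m →
      (Polynomial.X - Polynomial.C t) ^ m ∣ MvPolynomial.aeval φ F := by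
  intro m
  induction m with
  | zero => intro F _; simp
  | succ m ih =>
    intro F hF
    obtain ⟨h0, h1⟩ := vanishesToOrder_succ hF
    apply pow_succ_dvd_of_root
    · rw [eval_aeval]; exact h0
    · rw [derivative_aeval]
      apply Finset.dvd_sum
      intro j _
      exact Dvd.dvd.mul_right (ih _ (h1 j)) _

/-- A nonzero real polynomial has fewer sign variations than nonzero coefficients. -/
lemma signVariations_add_one_le (n : ℕ) : ∀ P : Polynomial ℝ, P.support.card = n → P ≠ 0 →
    P.signVariations + 1 ≤ n := by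
  induction n with
  | zero =>
    intro P h hP
    exfalso
    apply hP
    rw [Finset.card_eq_zero] at h
    exact Polynomial.support_eq_empty.1 h
  | succ n ih =>
    intro P h hP
    by_cases hE : P.eraseLead = 0
    · have h1 := Polynomial.eraseLead_add_monomial_natDegree_leadingCoeff P
      rw [hE, zero_add] at h1
      rw [← h1, Polynomial.signVariations_monomial]
      omega
    · have h1 := Polynomial.signVariations_le_eraseLead_succ P
      have h2 : P.eraseLead.support.card = n := by
        rw [Polynomial.card_support_eraseLead, h]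
        rfl
      have h3 := ih P.eraseLead h2 hE
      omega

/-- Descartes' bound: a nonzero real polynomial with `N` nonzero coefficients has at most
`N - 1` positive roots, counted with multiplicity. -/
lemma real_fewnomial_bound (h : Polynomial ℝ) (h0 : h ≠ 0) {ι : Type*} [Fintype ι] (t : ι → ℝ)
    (ht : Function.Injective t) (hpos : ∀ i, 0 < t i) (m : ι → ℕ)
    (hdiv : ∀ i, (Polynomial.X - Polynomial.C (t i)) ^ m i ∣ h) :
    ∑ i, m i + 1 ≤ h.support.card := by
  classical
  have h1 : ∀ i, m i ≤ h.roots.count (t i) := by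
    intro i
    rw [Polynomial.count_roots]
    exact (Polynomial.le_rootMultiplicity_iff h0).2 (hdiv i)
  have h2 : ∑ i, h.roots.count (t i) ≤ h.roots.countP (0 < ·) := by
    set M := h.roots.filter (0 < ·) with hM
    have h3 : ∀ i, h.roots.count (t i) = M.count (t i) := by
      intro i
      rw [hM, Multiset.count_filter_of_pos (hpos i)]
    simp_rw [h3]
    rw [Multiset.countP_eq_card_filter]
    calc ∑ i, M.count (t i) = ∑ a ∈ Finset.univ.image t, M.count a := by
          rw [Finset.sum_image (fun x _ y _ hxy => ht hxy)]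
      _ ≤ ∑ a ∈ Finset.univ.image t ∪ M.toFinset, M.count a :=
          Finset.sum_le_sum_of_subset Finset.subset_union_left
      _ = ∑ a ∈ M.toFinset, M.count a := by
          symm
          apply Finset.sum_subset Finset.subset_union_right
          intro a _ ha
          exact Multiset.count_eq_zero.2 (by simpa using ha)
      _ = M.card := Multiset.toFinset_sum_count_eq M
  have h4 := Polynomial.roots_countP_pos_le_signVariations h
  have h5 := signVariations_add_one_le _ h rfl h0
  have h6 : ∑ i, m i ≤ ∑ i, h.roots.count (t i) := Finset.sum_le_sum (fun i _ => h1 i)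
  omega

lemma complex_real_fewnomial_bound (q : Polynomial ℂ) (q0 : q ≠ 0)
    (hreal : ∀ k, (q.coeff k).im = 0) {ι : Type*} [Fintype ι] (t : ι → ℝ)
    (ht : Function.Injective t) (hpos : ∀ i, 0 < t i) (m : ι → ℕ)
    (hdiv : ∀ i, (Polynomial.X - Polynomial.C (t i : ℂ)) ^ m i ∣ q) :
    ∑ i, m i + 1 ≤ q.support.card := by
  have hl : q ∈ Polynomial.lifts Complex.ofRealHom := by
    rw [Polynomial.lifts_iff_coeff_lifts]
    intro k
    exact ⟨(q.coeff k).re, Complex.ext (by simp) (by simp [hreal k])⟩
  obtain ⟨h, rfl⟩ := (Polynomial.mem_lifts q).1 hl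
  have hinj : Function.Injective Complex.ofRealHom := Complex.ofReal_injective
  have h0 : h ≠ 0 := by
    rintro rfl
    simp at q0
  rw [Polynomial.support_map_of_injective _ hinj]
  apply real_fewnomial_bound h h0 t ht hpos m
  intro i
  rw [← Polynomial.le_rootMultiplicity_iff h0, Polynomial.eq_rootMultiplicity_map hinj]
  exact (Polynomial.le_rootMultiplicity_iff q0).2 (hdiv i)

/-- A nonzero complex polynomial with `N` nonzero coefficients has at most `N - 1` positive
real roots, counted with multiplicity. -/
lemma complex_fewnomial_bound (g : Polynomial ℂ) (g0 : g ≠ 0) {ι : Type*} [Fintype ι]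
    (t : ι → ℝ) (ht : Function.Injective t) (hpos : ∀ i, 0 < t i) (m : ι → ℕ)
    (hdiv : ∀ i, (Polynomial.X - Polynomial.C (t i : ℂ)) ^ m i ∣ g) :
    ∑ i, m i + 1 ≤ g.support.card := by
  set gb : Polynomial ℂ := g.map (starRingEnd ℂ) with hgb
  have hdivb : ∀ i, (Polynomial.X - Polynomial.C (t i : ℂ)) ^ m i ∣ gb := by
    intro i
    have := Polynomial.map_dvd (starRingEnd ℂ) (hdiv i)
    simpa using this
  have hq1 : ∀ k, ((g + gb).coeff k).im = 0 := by
    intro k
    simp [hgb]
  have hq2 : ∀ k, ((Polynomial.C Complex.I * (g - gb)).coeff k).im = 0 := by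
    intro k
    simp [hgb]
  have hs1 : (g + gb).support ⊆ g.support := by
    intro k hk
    rw [Polynomial.mem_support_iff] at hk ⊢
    intro h
    apply hk
    simp [hgb, h]
  have hs2 : (Polynomial.C Complex.I * (g - gb)).support ⊆ g.support := by
    intro k hk
    rw [Polynomial.mem_support_iff] at hk ⊢
    intro h
    apply hk
    simp [hgb, h]
  by_cases h1 : g + gb = 0
  · have h2 : Polynomial.C Complex.I * (g - gb) ≠ 0 := by
      intro h2
      have h3 : g - gb = 0 := by
        rcases mul_eq_zero.1 h2 with h | h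
        · exact absurd (Polynomial.C_eq_zero.1 h) Complex.I_ne_zero
        · exact h
      apply g0
      have h4 : (2 : Polynomial ℂ) * g = 0 := by linear_combination h1 + h3
      rcases mul_eq_zero.1 h4 with h | h
      · exact absurd h two_ne_zero
      · exact h
    exact le_trans (complex_real_fewnomial_bound _ h2 hq2 t ht hpos m
      (fun i => Dvd.dvd.mul_left (dvd_sub (hdiv i) (hdivb i)) _)) (Finset.card_le_card hs2)
  · exact le_trans (complex_real_fewnomial_bound _ h1 hq1 t ht hpos m
      (fun i => dvd_add (hdiv i) (hdivb i))) (Finset.card_le_card hs1)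

/-- The monomial curve `t ↦ (1, t, t ^ (d + 1))`. -/
noncomputable def curve (d : ℕ) : Fin 3 → Polynomial ℂ :=
  ![1, Polynomial.X, Polynomial.X ^ (d + 1)]

/-- The exponent of `t` in the restriction of a monomial to the monomial curve. -/
def expo (d : ℕ) (s : Fin 3 →₀ ℕ) : ℕ := s 1 + (d + 1) * s 2

lemma aeval_curve_monomial (d : ℕ) (s : Fin 3 →₀ ℕ) :
    MvPolynomial.aeval (curve d) (MvPolynomial.monomial s (1 : ℂ)) =
      Polynomial.X ^ expo d s := by
  rw [MvPolynomial.aeval_monomial, map_one, one_mul, Finsupp.prod_fintype _ _ (by simp)]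
  simp [Fin.prod_univ_three, curve, expo, pow_add, pow_mul]

lemma aeval_curve_eq {d : ℕ} {F : MvPolynomial (Fin 3) ℂ} (hF : F.IsHomogeneous d) :
    MvPolynomial.aeval (curve d) F =
      ∑ s : Mon d, Polynomial.monomial (expo d s.1) (MvPolynomial.coeff s.1 F) := by
  conv_lhs => rw [eq_sum_mon hF]
  rw [map_sum]
  refine Finset.sum_congr rfl ?_
  intro s _
  rw [map_smul, aeval_curve_monomial, ← Polynomial.C_mul_X_pow_eq_monomial,
    Polynomial.smul_eq_C_mul]

lemma expo_injective (d : ℕ) (s s' : Mon d) (h : expo d s.1 = expo d s'.1) : s = s' := by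
  have hs := s.2
  have hs' := s'.2
  rw [Finset.mem_finsuppAntidiag] at hs hs'
  have e1 := hs.1
  have e2 := hs'.1
  rw [Fin.sum_univ_three] at e1 e2
  unfold expo at h
  have h1 : s.1 1 = s'.1 1 := by
    have := congrArg (· % (d + 1)) h
    simp only [Nat.add_mul_mod_self_left] at this
    rwa [Nat.mod_eq_of_lt (by omega), Nat.mod_eq_of_lt (by omega)] at this
  have h2 : s.1 2 = s'.1 2 := by
    have : (d + 1) * s.1 2 = (d + 1) * s'.1 2 := by omega
    exact Nat.eq_of_mul_eq_mul_left (Nat.succ_pos d) this
  have h0 : s.1 0 = s'.1 0 := by omega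
  apply Subtype.ext
  apply Finsupp.ext
  intro j
  fin_cases j
  · exact h0
  · exact h1
  · exact h2

lemma coeff_aeval_curve {d : ℕ} {F : MvPolynomial (Fin 3) ℂ} (hF : F.IsHomogeneous d)
    (s : Mon d) :
    (MvPolynomial.aeval (curve d) F).coeff (expo d s.1) = MvPolynomial.coeff s.1 F := by
  rw [aeval_curve_eq hF, Polynomial.finsetSum_coeff, Finset.sum_eq_single s]
  · simp
  · intro s' _ hne
    rw [Polynomial.coeff_monomial, if_neg]
    intro h
    exact hne (expo_injective d s' s h)
  · intro h
    exact absurd (Finset.mem_univ s) h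

lemma support_aeval_curve {d : ℕ} {F : MvPolynomial (Fin 3) ℂ} (hF : F.IsHomogeneous d) :
    (MvPolynomial.aeval (curve d) F).support ⊆
      Finset.univ.image (fun s : Mon d => expo d s.1) := by
  classical
  intro k hk
  rw [Polynomial.mem_support_iff, aeval_curve_eq hF, Polynomial.finsetSum_coeff] at hk
  by_contra hnot
  apply hk
  apply Finset.sum_eq_zero
  intro s _
  rw [Polynomial.coeff_monomial, if_neg]
  intro h
  exact hnot (Finset.mem_image.2 ⟨s, Finset.mem_univ _, h⟩)

/-- The special position: the `i`-th point is `(1, i + 1, (i + 1) ^ (d + 1))`. -/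
noncomputable def specialPt (d r : ℕ) (i : Fin r) : Fin 3 → ℂ :=
  fun j => (curve d j).eval (((i : ℕ) : ℂ) + 1)

/-- At the special position, a nonzero form of degree `d` vanishing to order `m i` at the
`i`-th point has `2 * ∑ m i ≤ d * (d + 3)`. -/
lemma special_bound (d r : ℕ) (m : Fin r → ℕ) {F : MvPolynomial (Fin 3) ℂ}
    (hF : F.IsHomogeneous d) (hF0 : F ≠ 0)
    (hv : ∀ i, VanishesToOrder F (specialPt d r i) (m i)) :
    2 * ∑ i, m i ≤ d * (d + 3) := by
  classical
  set g := MvPolynomial.aeval (curve d) F with hg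
  have hg0 : g ≠ 0 := by
    obtain ⟨s, hs⟩ := MvPolynomial.ne_zero_iff.1 hF0
    intro h
    have := coeff_aeval_curve hF ⟨s, mem_mon_of_coeff_ne_zero hF hs⟩
    rw [← hg, h, Polynomial.coeff_zero] at this
    exact hs this.symm
  have hdiv : ∀ i : Fin r,
      (Polynomial.X - Polynomial.C ((((i : ℕ) : ℝ) + 1 : ℝ) : ℂ)) ^ m i ∣ g := by
    intro i
    have := pow_dvd_aeval (curve d) (((i : ℕ) : ℂ) + 1) (m i) F (hv i)
    simpa using this
  have hinj : Function.Injective (fun i : Fin r => ((i : ℕ) : ℝ) + 1) := by
    intro i j hij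
    have : ((i : ℕ) : ℝ) = ((j : ℕ) : ℝ) := by simpa using hij
    exact Fin.ext (by exact_mod_cast this)
  have hpos : ∀ i : Fin r, (0 : ℝ) < ((i : ℕ) : ℝ) + 1 := by
    intro i
    positivity
  have hb := complex_fewnomial_bound g hg0 (fun i : Fin r => ((i : ℕ) : ℝ) + 1) hinj hpos m hdiv
  have hc : g.support.card ≤ Fintype.card (Mon d) := by
    calc g.support.card ≤ (Finset.univ.image (fun s : Mon d => expo d s.1)).card :=
          Finset.card_le_card (support_aeval_curve hF)
      _ ≤ (Finset.univ : Finset (Mon d)).card := Finset.card_image_le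
      _ = Fintype.card (Mon d) := Finset.card_univ
  have hN := card_mon d
  nlinarith

end Vale.Agent.Lib.P279
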