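import Vale.Agent.Lib.P279.Simple

namespace Vale.Agent.Lib.P279

open MvPolynomial

/-- `F` vanishes to order at least `m` at `x`: every iterated partial derivative of `F` of
order less than `m` vanishes at `x`. -/
def VanishesToOrder (F : MvPolynomial (Fin 3) ℂ) (x : Fin 3 → ℂ) (m : ℕ) : Prop :=
  ∀ l : List (Fin 3), l.length < m → eval x (l.foldr (fun i G => pderiv i G) F) = 0

/-- A polynomial in the `3 * r` homogeneous coordinates of `r` points is multihomogeneous:
it is homogeneous of some degree `e i` in the three coordinates of the `i`-th point. -/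
def IsMultiHomogeneous (r : ℕ) (f : MvPolynomial (Fin r × Fin 3) ℂ) : Prop :=
  ∃ e : Fin r → ℕ, ∀ (c : Fin r → ℂ) (p : Fin r → Fin 3 → ℂ),
    eval (fun ij : Fin r × Fin 3 => c ij.1 * p ij.1 ij.2) f =
      (∏ i, c i ^ e i) * eval (fun ij : Fin r × Fin 3 => p ij.1 ij.2) f

end Vale.Agent.Lib.P279
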