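import Vale.Agent.Lib.P279.Defs

namespace Vale.Agent.Lib.P279

open MvPolynomial

/-- Iterated partial derivative along a list of variables. -/
noncomputable def dl (l : List (Fin 3)) (G : MvPolynomial (Fin 3) ℂ) : MvPolynomial (Fin 3) ℂ :=
  l.foldr (fun i G => pderiv i G) G

lemma dl_nil (G : MvPolynomial (Fin 3) ℂ) : dl [] G = G := rfl

lemma dl_cons (i : Fin 3) (l : List (Fin 3)) (G : MvPolynomial (Fin 3) ℂ) :
    dl (i :: l) G = pderiv i (dl l G) := rfl

lemma dl_append (l₁ l₂ : List (Fin 3)) (G : MvPolynomial (Fin 3) ℂ) :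
    dl (l₁ ++ l₂) G = dl l₁ (dl l₂ G) := by
  unfold dl
  rw [List.foldr_append]

lemma dl_zero (l : List (Fin 3)) : dl l 0 = 0 := by
  induction l with
  | nil => rfl
  | cons i l ih => rw [dl_cons, ih, map_zero]

lemma dl_add (l : List (Fin 3)) (G H : MvPolynomial (Fin 3) ℂ) :
    dl l (G + H) = dl l G + dl l H := by
  induction l with
  | nil => rfl
  | cons i l ih => rw [dl_cons, ih, map_add, dl_cons, dl_cons]

lemma dl_smul (l : List (Fin 3)) (c : ℂ) (G : MvPolynomial (Fin 3) ℂ) :
    dl l (c • G) = c • dl l G := by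
  induction l with
  | nil => rfl
  | cons i l ih => rw [dl_cons, ih, Derivation.map_smul, dl_cons]

lemma dl_sum {ι : Type*} (s : Finset ι) (f : ι → MvPolynomial (Fin 3) ℂ) (l : List (Fin 3)) :
    dl l (∑ a ∈ s, f a) = ∑ a ∈ s, dl l (f a) := by
  classical
  induction s using Finset.induction_on with
  | empty => simp [dl_zero]
  | insert a s ha ih => rw [Finset.sum_insert ha, Finset.sum_insert ha, dl_add, ih]

lemma dl_isHomogeneous {G : MvPolynomial (Fin 3) ℂ} {n : ℕ} (h : G.IsHomogeneous n)
    (l : List (Fin 3)) : (dl l G).IsHomogeneous (n - l.length) := by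
  induction l with
  | nil => simpa [dl_nil] using h
  | cons i l ih =>
    rw [dl_cons]
    have := ih.pderiv (i := i)
    rwa [List.length_cons, Nat.sub_add_eq]

lemma vanishesToOrder_iff (F : MvPolynomial (Fin 3) ℂ) (x : Fin 3 → ℂ) (m : ℕ) :
    VanishesToOrder F x m ↔ ∀ l : List (Fin 3), l.length < m → eval x (dl l F) = 0 :=
  Iff.rfl

/-- Scaling the point scales the value of a homogeneous polynomial. -/
lemma eval_smul_of_isHomogeneous {G : MvPolynomial (Fin 3) ℂ} {n : ℕ} (h : G.IsHomogeneous n)
    (c : ℂ) (x : Fin 3 → ℂ) :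
    eval (fun j => c * x j) G = c ^ n * eval x G := by
  rw [eval_eq, eval_eq, Finset.mul_sum]
  refine Finset.sum_congr rfl ?_
  intro s hs
  have hs' : coeff s G ≠ 0 := by simpa using hs
  have h1 : (Finsupp.weight (fun _ => 1)) s = n := h hs'
  rw [← Finsupp.degree_eq_weight_one, Finsupp.degree_apply] at h1
  simp_rw [mul_pow]
  rw [Finset.prod_mul_distrib, Finset.prod_pow_eq_pow_sum, h1]
  ring

/-- A homogeneous polynomial is the sum of its monomials of the right degree. -/
lemma eq_sum_mon {d : ℕ} {F : MvPolynomial (Fin 3) ℂ} (hF : F.IsHomogeneous d) :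
    F = ∑ s : Mon d, coeff s.1 F • monomial s.1 (1 : ℂ) := by
  classical
  have h1 : F = ∑ s ∈ (Finset.univ : Finset (Fin 3)).finsuppAntidiag d, monomial s (coeff s F) := by
    conv_lhs => rw [F.as_sum]
    apply Finset.sum_subset
    · intro s hs
      exact mem_mon_of_coeff_ne_zero hF (by simpa using hs)
    · intro s _ hs
      have : coeff s F = 0 := by simpa using hs
      simp [this]
  conv_lhs => rw [h1]
  rw [← Finset.sum_coe_sort]
  refine Finset.sum_congr rfl ?_
  intro s _
  rw [smul_monomial, smul_eq_mul, mul_one]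

/-- The vector of values at `x` of the derivative along `l` of all degree `d` monomials. -/
noncomputable def rowVec (d : ℕ) (x : Fin 3 → ℂ) (l : List (Fin 3)) : Mon d → ℂ :=
  fun s => eval x (dl l (monomial s.1 (1 : ℂ)))

lemma eval_dl_sum (d : ℕ) (c : Mon d → ℂ) (x : Fin 3 → ℂ) (l : List (Fin 3)) :
    eval x (dl l (∑ s : Mon d, c s • monomial s.1 (1 : ℂ))) = ∑ s : Mon d, c s * rowVec d x l s := by
  rw [dl_sum, map_sum]
  refine Finset.sum_congr rfl ?_
  intro s _
  rw [dl_smul, smul_eval, rowVec]

lemma eval_dl_eq_sum {d : ℕ} {F : MvPolynomial (Fin 3) ℂ} (hF : F.IsHomogeneous d)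
    (x : Fin 3 → ℂ) (l : List (Fin 3)) :
    eval x (dl l F) = ∑ s : Mon d, coeff s.1 F * rowVec d x l s := by
  conv_lhs => rw [eq_sum_mon hF]
  exact eval_dl_sum d _ x l

lemma rowVec_smul (d : ℕ) (c : ℂ) (x : Fin 3 → ℂ) (l : List (Fin 3)) (s : Mon d) :
    rowVec d (fun j => c * x j) l s = c ^ (d - l.length) * rowVec d x l s := by
  have hs := s.2
  rw [Finset.mem_finsuppAntidiag] at hs
  have hh : (monomial s.1 (1 : ℂ)).IsHomogeneous d := by
    apply isHomogeneous_monomial
    rw [Finsupp.degree_eq_sum]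
    exact hs.1
  exact eval_smul_of_isHomogeneous (dl_isHomogeneous hh l) c x

/-- The square matrix whose rows are derivative-value vectors at the points of `p`,
the row `a` being taken at the point `(e a).1` along the list `(e a).2`. -/
noncomputable def fatMat (d r : ℕ) (e : Mon d → Fin r × List (Fin 3)) (p : Fin r → Fin 3 → ℂ) :
    Matrix (Mon d) (Mon d) ℂ :=
  Matrix.of fun a s => rowVec d (p (e a).1) (e a).2 s

/-- The determinant of the generic matrix of derivative values, a polynomial in the
coordinates of the points. -/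
noncomputable def fatDet (d r : ℕ) (e : Mon d → Fin r × List (Fin 3)) :
    MvPolynomial (Fin r × Fin 3) ℂ :=
  Matrix.det (Matrix.of fun (a s : Mon d) =>
    rename (fun j : Fin 3 => ((e a).1, j)) (dl (e a).2 (monomial s.1 (1 : ℂ))))

lemma eval_fatDet (d r : ℕ) (e : Mon d → Fin r × List (Fin 3)) (p : Fin r → Fin 3 → ℂ) :
    eval (fun ij : Fin r × Fin 3 => p ij.1 ij.2) (fatDet d r e) = (fatMat d r e p).det := by
  rw [fatDet, RingHom.map_det]
  congr 1
  ext a s
  simp only [RingHom.mapMatrix_apply, Matrix.map_apply, Matrix.of_apply, fatMat, rowVec,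
    eval_rename]
  rfl

lemma eval_fatDet_smul (d r : ℕ) (e : Mon d → Fin r × List (Fin 3))
    (c : Fin r → ℂ) (p : Fin r → Fin 3 → ℂ) :
    eval (fun ij : Fin r × Fin 3 => c ij.1 * p ij.1 ij.2) (fatDet d r e) =
      (∏ i, c i ^ (∑ a with (e a).1 = i, (d - (e a).2.length))) *
        eval (fun ij : Fin r × Fin 3 => p ij.1 ij.2) (fatDet d r e) := by
  classical
  rw [eval_fatDet d r e (fun i j => c i * p i j), eval_fatDet]
  have h1 : fatMat d r e (fun i j => c i * p i j) =
      Matrix.of fun a s => c (e a).1 ^ (d - (e a).2.length) * fatMat d r e p a s := by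
    ext a s
    simp [fatMat, rowVec_smul]
  rw [h1, Matrix.det_mul_column]
  congr 1
  rw [← Finset.prod_fiberwise Finset.univ (fun a => (e a).1)
    (fun a => c (e a).1 ^ (d - (e a).2.length))]
  refine Finset.prod_congr rfl ?_
  intro i _
  rw [← Finset.prod_pow_eq_pow_sum]
  refine Finset.prod_congr rfl ?_
  intro a ha
  rw [(Finset.mem_filter.1 ha).2]

lemma fatDet_isMultiHomogeneous (d r : ℕ) (e : Mon d → Fin r × List (Fin 3)) :
    IsMultiHomogeneous r (fatDet d r e) :=
  ⟨fun i => ∑ a with (e a).1 = i, (d - (e a).2.length), fun c p => eval_fatDet_smul d r e c p⟩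

/-- If a nonzero form of degree `d` vanishes to order `m i` at `p i` for all `i`, then every
determinant built from rows of order below `m` vanishes at `p`. -/
lemma eval_fatDet_eq_zero {d r : ℕ} (m : Fin r → ℕ) (p : Fin r → Fin 3 → ℂ)
    {F : MvPolynomial (Fin 3) ℂ} (hF : F.IsHomogeneous d) (hF0 : F ≠ 0)
    (hv : ∀ i, VanishesToOrder F (p i) (m i))
    (e : Mon d → Fin r × List (Fin 3)) (he : ∀ a, (e a).2.length < m (e a).1) :
    eval (fun ij : Fin r × Fin 3 => p ij.1 ij.2) (fatDet d r e) = 0 := by
  classical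
  rw [eval_fatDet, ← Matrix.exists_mulVec_eq_zero_iff]
  refine ⟨fun s => coeff s.1 F, ?_, ?_⟩
  · obtain ⟨s, hs⟩ := MvPolynomial.ne_zero_iff.1 hF0
    intro h
    have := congrFun h ⟨s, mem_mon_of_coeff_ne_zero hF hs⟩
    exact hs (by simpa using this)
  · ext a
    have := hv (e a).1 (e a).2 (he a)
    change eval (p (e a).1) (dl (e a).2 F) = 0 at this
    rw [eval_dl_eq_sum hF] at this
    simp only [Matrix.mulVec, dotProduct, fatMat, Matrix.of_apply, Pi.zero_apply]
    rw [← this]
    exact Finset.sum_congr rfl (fun s _ => mul_comm _ _)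

/-- If at some position `p0` no nonzero form of degree `d` has the prescribed vanishing
orders, then some determinant built from rows of order below `m` is a nonzero polynomial. -/
lemma exists_fatDet_ne_zero (d r : ℕ) (m : Fin r → ℕ) (p0 : Fin r → Fin 3 → ℂ)
    (h0 : ∀ F : MvPolynomial (Fin 3) ℂ, F.IsHomogeneous d →
      (∀ i, VanishesToOrder F (p0 i) (m i)) → F = 0) :
    ∃ e : Mon d → Fin r × List (Fin 3), (∀ a, (e a).2.length < m (e a).1) ∧ fatDet d r e ≠ 0 := by
  classical
  set V : Set (Mon d → ℂ) := {v | ∃ (i : Fin r) (l : List (Fin 3)), l.length < m i ∧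
    rowVec d (p0 i) l = v} with hV
  have hspan : Submodule.span ℂ V = ⊤ := by
    by_contra hne
    obtain ⟨f, hf0, hf⟩ := Submodule.exists_dual_map_eq_bot_of_lt_top (lt_top_iff_ne_top.2 hne)
      inferInstance
    apply hf0
    have hvan : ∀ v ∈ V, f v = 0 := by
      intro v hv
      have : f v ∈ (Submodule.span ℂ V).map f :=
        Submodule.mem_map_of_mem (Submodule.subset_span hv)
      rw [hf] at this
      simpa using this
    set c : Mon d → ℂ := fun s => f (Pi.single s 1) with hc
    have hfc : ∀ w : Mon d → ℂ, f w = ∑ s, w s * c s := by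
      intro w
      rw [LinearMap.pi_apply_eq_sum_univ f w]
      refine Finset.sum_congr rfl ?_
      intro s _
      simp only [hc, smul_eq_mul]
      congr 2
      ext t
      simp [Pi.single_apply, eq_comm]
    set G : MvPolynomial (Fin 3) ℂ := ∑ s : Mon d, c s • monomial s.1 (1 : ℂ) with hG
    have hGh : G.IsHomogeneous d := by
      rw [hG]
      apply IsHomogeneous.sum
      intro s _
      have hs := s.2
      rw [Finset.mem_finsuppAntidiag] at hs
      rw [smul_monomial]
      apply isHomogeneous_monomial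
      rw [Finsupp.degree_eq_sum]
      exact hs.1
    have hG0 : G = 0 := by
      apply h0 G hGh
      intro i l hl
      change eval (p0 i) (dl l G) = 0
      rw [hG, eval_dl_sum]
      have := hvan _ ⟨i, l, hl, rfl⟩
      rw [hfc] at this
      rw [← this]
      exact Finset.sum_congr rfl (fun s _ => mul_comm _ _)
    have hc0 : ∀ s : Mon d, c s = 0 := by
      intro s
      have h1 : coeff s.1 G = c s := by
        rw [hG, coeff_sum]
        rw [Finset.sum_eq_single s]
        · simp
        · intro t _ hts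
          rw [smul_monomial, coeff_monomial, if_neg]
          intro h
          exact hts (Subtype.ext h)
        · intro h
          exact absurd (Finset.mem_univ s) h
      rw [← h1, hG0, coeff_zero]
    apply LinearMap.ext
    intro w
    rw [hfc]
    simp [hc0]
  obtain ⟨f, hfmem, -, hfli⟩ := Submodule.exists_fun_fin_finrank_span_eq ℂ V
  have hrank : Module.finrank ℂ ↥(Submodule.span ℂ V) = Fintype.card (Mon d) := by
    rw [hspan, finrank_top, Module.finrank_fintype_fun_eq_card]
  choose i' l' hl' hrow using hfmem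
  let σ : Mon d ≃ Fin (Module.finrank ℂ ↥(Submodule.span ℂ V)) :=
    Fintype.equivFinOfCardEq hrank.symm
  refine ⟨fun a => (i' (σ a), l' (σ a)), fun a => hl' (σ a), ?_⟩
  intro hzero
  have h1 := eval_fatDet d r (fun a => (i' (σ a), l' (σ a))) p0
  rw [hzero, map_zero] at h1
  have h2 : fatMat d r (fun a => (i' (σ a), l' (σ a))) p0 = Matrix.of fun a s => f (σ a) s := by
    ext a s
    simp [fatMat, hrow]
  rw [h2] at h1
  have h3 : IsUnit (Matrix.of fun a s => f (σ a) s : Matrix (Mon d) (Mon d) ℂ) := by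
    rw [← Matrix.linearIndependent_rows_iff_isUnit]
    exact hfli.comp _ σ.injective
  rw [Matrix.isUnit_iff_isUnit_det] at h3
  exact h3.ne_zero h1.symm

end Vale.Agent.Lib.P279
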