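import Mathlib

namespace Vale.Agent.Lib.P279

open MvPolynomial

/-- Index type: exponent vectors of the monomials of degree `d` in three variables. -/
abbrev Mon (d : ℕ) : Type := ↥((Finset.univ : Finset (Fin 3)).finsuppAntidiag d)

/-- The vector of values of all degree `d` monomials at a point. -/
noncomputable def monVec (d : ℕ) (x : Fin 3 → ℂ) : Mon d → ℂ :=
  fun s => eval x (monomial s.1 (1 : ℂ))

lemma mem_mon_of_coeff_ne_zero {d : ℕ} {F : MvPolynomial (Fin 3) ℂ} (hF : F.IsHomogeneous d)
    {s : Fin 3 →₀ ℕ} (hs : coeff s F ≠ 0) :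
    s ∈ (Finset.univ : Finset (Fin 3)).finsuppAntidiag d := by
  rw [Finset.mem_finsuppAntidiag]
  refine ⟨?_, Finset.subset_univ _⟩
  have h : (Finsupp.weight (fun _ => 1)) s = d := hF hs
  rw [← Finsupp.degree_eq_weight_one, Finsupp.degree_eq_sum] at h
  exact h

lemma eval_eq_sum_mon {d : ℕ} {F : MvPolynomial (Fin 3) ℂ} (hF : F.IsHomogeneous d)
    (x : Fin 3 → ℂ) :
    eval x F = ∑ s : Mon d, coeff s.1 F * monVec d x s := by
  classical
  have h1 : F = ∑ s ∈ (Finset.univ : Finset (Fin 3)).finsuppAntidiag d, monomial s (coeff s F) := by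
    conv_lhs => rw [F.as_sum]
    apply Finset.sum_subset
    · intro s hs
      exact mem_mon_of_coeff_ne_zero hF (by simpa using hs)
    · intro s _ hs
      have : coeff s F = 0 := by simpa using hs
      simp [this]
  conv_lhs => rw [h1]
  rw [map_sum, ← Finset.sum_coe_sort]
  refine Finset.sum_congr rfl ?_
  intro s _
  simp [monVec, eval_monomial]

lemma span_monVec_eq_top (d : ℕ) :
    Submodule.span ℂ (Set.range (monVec d)) = ⊤ := by
  classical
  by_contra hne
  obtain ⟨f, hf0, hf⟩ := Submodule.exists_dual_map_eq_bot_of_lt_top (lt_top_iff_ne_top.2 hne)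
    inferInstance
  apply hf0
  have hvan : ∀ x : Fin 3 → ℂ, f (monVec d x) = 0 := by
    intro x
    have : f (monVec d x) ∈ (Submodule.span ℂ (Set.range (monVec d))).map f :=
      Submodule.mem_map_of_mem (Submodule.subset_span ⟨x, rfl⟩)
    rw [hf] at this
    simpa using this
  -- the polynomial with coefficients given by f
  set c : Mon d → ℂ := fun s => f (Pi.single s 1) with hc
  have hfc : ∀ w : Mon d → ℂ, f w = ∑ s, w s * c s := by
    intro w
    rw [LinearMap.pi_apply_eq_sum_univ f w]
    refine Finset.sum_congr rfl ?_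
    intro s _
    simp only [hc, smul_eq_mul]
    congr 2
    ext t
    simp [Pi.single_apply, eq_comm]
  set G : MvPolynomial (Fin 3) ℂ := ∑ s : Mon d, monomial s.1 (c s) with hG
  have hG0 : G = 0 := by
    apply MvPolynomial.funext
    intro x
    have := hvan x
    rw [hfc] at this
    rw [hG, map_sum, map_zero, ← this]
    refine Finset.sum_congr rfl ?_
    intro s _
    simp [monVec, eval_monomial, mul_comm]
  have hc0 : ∀ s : Mon d, c s = 0 := by
    intro s
    have h1 : coeff s.1 G = c s := by
      rw [hG, coeff_sum]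
      rw [Finset.sum_eq_single s]
      · simp
      · intro t _ hts
        rw [coeff_monomial, if_neg]
        intro h
        exact hts (Subtype.ext h)
      · intro h
        exact absurd (Finset.mem_univ s) h
    rw [← h1, hG0, coeff_zero]
  apply LinearMap.ext
  intro w
  rw [hfc]
  simp [hc0]

lemma exists_indep_points (d : ℕ) :
    ∃ q : Mon d → (Fin 3 → ℂ), LinearIndependent ℂ (fun a => monVec d (q a)) := by
  classical
  obtain ⟨f, hfmem, -, hfli⟩ :=
    Submodule.exists_fun_fin_finrank_span_eq ℂ (Set.range (monVec d))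
  have hrank : Module.finrank ℂ ↥(Submodule.span ℂ (Set.range (monVec d))) = Fintype.card (Mon d) := by
    rw [span_monVec_eq_top, finrank_top, Module.finrank_fintype_fun_eq_card]
  choose q' hq' using hfmem
  let σ : Mon d ≃ Fin (Module.finrank ℂ ↥(Submodule.span ℂ (Set.range (monVec d)))) :=
    Fintype.equivFinOfCardEq hrank.symm
  refine ⟨fun a => q' (σ a), ?_⟩
  have : (fun a => monVec d (q' (σ a))) = f ∘ σ := by
    funext a
    simp [hq']
  rw [this]
  exact hfli.comp _ σ.injective


/-- The square matrix of values of the degree `d` monomials at the points `p (e a)`. -/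
noncomputable def evalMat (d r : ℕ) (e : Mon d → Fin r) (p : Fin r → Fin 3 → ℂ) :
    Matrix (Mon d) (Mon d) ℂ :=
  Matrix.of fun a s => monVec d (p (e a)) s

/-- The determinant of the generic evaluation matrix, a polynomial in the coordinates of
the points. -/
noncomputable def detPoly (d r : ℕ) (e : Mon d → Fin r) : MvPolynomial (Fin r × Fin 3) ℂ :=
  Matrix.det (Matrix.of fun (a s : Mon d) =>
    rename (fun j : Fin 3 => (e a, j)) (monomial s.1 (1 : ℂ)))

lemma eval_detPoly (d r : ℕ) (e : Mon d → Fin r) (p : Fin r → Fin 3 → ℂ) :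
    eval (fun ij : Fin r × Fin 3 => p ij.1 ij.2) (detPoly d r e) = (evalMat d r e p).det := by
  rw [detPoly, RingHom.map_det]
  congr 1
  ext a s
  simp only [RingHom.mapMatrix_apply, Matrix.map_apply, Matrix.of_apply, evalMat, monVec,
    eval_rename]
  rfl

lemma detPoly_ne_zero (d r : ℕ) (e : Mon d → Fin r) (he : Function.Injective e) :
    detPoly d r e ≠ 0 := by
  classical
  obtain ⟨q, hq⟩ := exists_indep_points d
  intro h0
  have h1 := eval_detPoly d r e (Function.extend e q 0)
  rw [h0, map_zero] at h1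
  have h2 : evalMat d r e (Function.extend e q 0) = Matrix.of fun a s => monVec d (q a) s := by
    ext a s
    simp [evalMat, he.extend_apply]
  rw [h2] at h1
  have h3 : IsUnit (Matrix.of fun a s => monVec d (q a) s : Matrix (Mon d) (Mon d) ℂ) := by
    rw [← Matrix.linearIndependent_rows_iff_isUnit]
    exact hq
  rw [Matrix.isUnit_iff_isUnit_det] at h3
  exact h3.ne_zero h1.symm

lemma monVec_smul (d : ℕ) (c : ℂ) (x : Fin 3 → ℂ) (s : Mon d) :
    monVec d (fun j => c * x j) s = c ^ d * monVec d x s := by
  have hs := s.2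
  rw [Finset.mem_finsuppAntidiag] at hs
  simp only [monVec, eval_monomial, one_mul]
  rw [Finsupp.prod_fintype _ _ (by simp), Finsupp.prod_fintype _ _ (by simp)]
  simp_rw [mul_pow]
  rw [Finset.prod_mul_distrib, Finset.prod_pow_eq_pow_sum, hs.1]

lemma eval_detPoly_smul (d r : ℕ) (e : Mon d → Fin r) (he : Function.Injective e)
    (c : Fin r → ℂ) (p : Fin r → Fin 3 → ℂ) :
    eval (fun ij : Fin r × Fin 3 => c ij.1 * p ij.1 ij.2) (detPoly d r e) =
      (∏ i, c i ^ (if i ∈ Set.range e then d else 0)) *
        eval (fun ij : Fin r × Fin 3 => p ij.1 ij.2) (detPoly d r e) := by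
  classical
  rw [eval_detPoly d r e (fun i j => c i * p i j), eval_detPoly]
  have h1 : evalMat d r e (fun i j => c i * p i j) =
      Matrix.of fun a s => c (e a) ^ d * evalMat d r e p a s := by
    ext a s
    simp [evalMat, monVec_smul]
  rw [h1, Matrix.det_mul_column]
  congr 1
  have h2 : ∀ i, c i ^ (if i ∈ Set.range e then d else 0) =
      if i ∈ Finset.univ.image e then c i ^ d else 1 := by
    intro i
    have hiff : i ∈ Finset.univ.image e ↔ i ∈ Set.range e := by
      rw [Finset.mem_image, Set.mem_range]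
      exact ⟨fun ⟨a, _, ha⟩ => ⟨a, ha⟩, fun ⟨a, ha⟩ => ⟨a, Finset.mem_univ _, ha⟩⟩
    by_cases hi : i ∈ Set.range e
    · rw [if_pos hi, if_pos (hiff.2 hi)]
    · rw [if_neg hi, if_neg (fun h => hi (hiff.1 h)), pow_zero]
  simp_rw [h2]
  rw [Finset.prod_ite_mem, Finset.univ_inter, Finset.prod_image (fun x _ y _ h => he h)]

lemma evalMat_det_eq_zero {d r : ℕ} (e : Mon d → Fin r) (p : Fin r → Fin 3 → ℂ)
    {F : MvPolynomial (Fin 3) ℂ} (hF : F.IsHomogeneous d) (hF0 : F ≠ 0)
    (hz : ∀ a, eval (p (e a)) F = 0) : (evalMat d r e p).det = 0 := by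
  classical
  rw [← Matrix.exists_mulVec_eq_zero_iff]
  refine ⟨fun s => coeff s.1 F, ?_, ?_⟩
  · obtain ⟨s, hs⟩ := MvPolynomial.ne_zero_iff.1 hF0
    intro h
    have := congrFun h ⟨s, mem_mon_of_coeff_ne_zero hF hs⟩
    exact hs (by simpa using this)
  · ext a
    have := hz a
    rw [eval_eq_sum_mon hF] at this
    simp only [Matrix.mulVec, dotProduct, evalMat, Matrix.of_apply, Pi.zero_apply]
    rw [← this]
    exact Finset.sum_congr rfl (fun s _ => mul_comm _ _)

lemma card_mon (d : ℕ) : 2 * Fintype.card (Mon d) = (d + 1) * (d + 2) := by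
  rw [Fintype.card_coe, Finset.card_finsuppAntidiag_nat_eq_choose]
  simp only [Finset.card_univ, Fintype.card_fin]
  have h : (3 + d - 1).choose d = (d + 2).choose 2 := by
    have : 3 + d - 1 = d + 2 := by omega
    rw [this, ← Nat.choose_symm_add]
  rw [h, Nat.choose_two_right]
  have hev : Even ((d + 2) * (d + 2 - 1)) := Nat.even_mul_pred_self _
  have := Nat.two_mul_div_two_of_even hev
  rw [this]
  have : d + 2 - 1 = d + 1 := by omega
  rw [this]
  ring

/-- If none of the determinant polynomials vanishes at `p`, a nonzero form of degree `d`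
vanishes at fewer than `card (Mon d)` of the points. -/
lemma card_zeros_lt {r : ℕ} (p : Fin r → Fin 3 → ℂ)
    (hp : ∀ (d : ℕ) (e : Mon d → Fin r), Function.Injective e →
      eval (fun ij : Fin r × Fin 3 => p ij.1 ij.2) (detPoly d r e) ≠ 0)
    {d : ℕ} {F : MvPolynomial (Fin 3) ℂ} (hF : F.IsHomogeneous d) (hF0 : F ≠ 0) :
    (Finset.univ.filter (fun i => eval (p i) F = 0)).card < Fintype.card (Mon d) := by
  classical
  by_contra hcon
  rw [not_lt] at hcon
  set Z := Finset.univ.filter (fun i => eval (p i) F = 0) with hZ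
  have hcard : Fintype.card (Mon d) ≤ Fintype.card ↥Z := by simpa using hcon
  obtain ⟨g⟩ := Function.Embedding.nonempty_of_card_le hcard
  have he : Function.Injective (fun a => (g a).1) := fun a b h => g.injective (Subtype.ext h)
  apply hp d (fun a => (g a).1) he
  rw [eval_detPoly]
  apply evalMat_det_eq_zero _ _ hF hF0
  intro a
  have hmem : (g a).1 ∈ Finset.univ.filter (fun i => eval (p i) F = 0) := (g a).2
  exact (Finset.mem_filter.1 hmem).2

end Vale.Agent.Lib.P279
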